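import Crest.Agent.R166.Defs

/-! Row 166, block DOS: a measure from its moments (M. Riesz extension + Riesz-Markov-Kakutani). -/

set_option autoImplicit false

open MeasureTheory Filter Topology Polynomial
open scoped BigOperators

noncomputable section

namespace Crest.Agent.R166

/-- the linear functional on polynomials with the moments `m` -/
def dosL (m : ℕ → ℝ) : ℝ[X] →ₗ[ℝ] ℝ := Polynomial.lsum fun k => LinearMap.mulRight ℝ (m k)

theorem dosL_apply (m : ℕ → ℝ) (p : ℝ[X]) : dosL m p = ∑ k ∈ p.support, p.coeff k * m k := by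
  simp [dosL, Polynomial.sum]

theorem dos_moment {R : ℝ} (hR : 0 < R) (m : ℕ → ℝ) (h0 : m 0 = 1)
    (hpos : ∀ p : ℝ[X], (∀ x ∈ Set.Icc (-R) R, 0 ≤ p.eval x) → 0 ≤ dosL m p) :
    ∃ ν : Measure ℝ, IsProbabilityMeasure ν ∧ ν (Set.Icc (-R) R)ᶜ = 0 ∧
      ∀ p : ℝ[X], ∫ x, p.eval x ∂ν = dosL m p := by
  let K := Set.Icc (-R) R
  let T : ℝ[X] →ₗ[ℝ] CompactlySupportedContinuousMap K ℝ :=
    { toFun := fun p => ⟨⟨fun x => p.eval (x : ℝ), p.continuous.comp continuous_subtype_val⟩,
        HasCompactSupport.of_compactSpace _⟩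
      map_add' := fun p p' => by ext x; simp
      map_smul' := fun c p => by ext x; simp }
  have hT : Function.Injective T := by
    rw [← LinearMap.ker_eq_bot, LinearMap.ker_eq_bot']
    intro p hp
    refine p.eq_zero_of_infinite_isRoot ((Set.Icc_infinite (by linarith : -R < R)).mono fun x hx => ?_)
    exact congrArg (fun f : CompactlySupportedContinuousMap K ℝ => f ⟨x, hx⟩) hp
  let e := LinearEquiv.ofInjective T hT
  obtain ⟨g, hg, hg0⟩ := riesz_extension
    (PointedCone.ofConeComb {u : CompactlySupportedContinuousMap K ℝ | ∀ x, 0 ≤ u x} ⟨0, fun _ => le_rfl⟩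
      fun u hu v hv a ha b hb x => add_nonneg (mul_nonneg ha (hu x)) (mul_nonneg hb (hv x)))
    ⟨LinearMap.range T, (dosL m).comp e.symm.toLinearMap⟩
    (by
      intro x hx
      obtain ⟨p, rfl⟩ := e.surjective x
      have : 0 ≤ dosL m p := hpos p fun y hy => hx ⟨y, hy⟩
      simpa using this)
    (by
      intro y
      obtain ⟨M, hM⟩ := isCompact_univ.exists_bound_of_continuousOn (map_continuous y).continuousOn
      refine ⟨e (C M), fun x => ?_⟩
      have := (abs_le.1 (hM x (Set.mem_univ x))).1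
      change 0 ≤ (C M).eval (x : ℝ) + y x
      rw [eval_C]
      linarith)
  have hg' : ∀ p, g (T p) = dosL m p := fun p => (hg (e p)).trans (by simp)
  let Λ : CompactlySupportedContinuousMap K ℝ →ₚ[ℝ] ℝ := PositiveLinearMap.mk₀ g fun u hu => hg0 u hu
  have key : ∀ p : ℝ[X], ∫ x, p.eval x ∂(RealRMK.rieszMeasure Λ).map Subtype.val = dosL m p := fun p => by
    rw [integral_map measurable_subtype_coe.aemeasurable p.continuous.aestronglyMeasurable, ← hg']
    exact RealRMK.integral_rieszMeasure Λ (T p)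
  refine ⟨_, ⟨?_⟩, ?_, key⟩
  · have := key (X ^ 0)
    simp only [dosL_apply, support_X_pow, Finset.sum_singleton, coeff_X_pow_self, h0] at this
    simp only [pow_zero, eval_one, integral_const, smul_eq_mul, mul_one] at this
    exact (ENNReal.toReal_eq_one_iff _).1 this
  · rw [Measure.map_apply measurable_subtype_coe measurableSet_Icc.compl]
    convert measure_empty (μ := RealRMK.rieszMeasure Λ)
    ext x
    simp

/-- a finitely supported measure on `[-R,R]` with the first moments `m` and `∫ f` close to `g` -/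
def DosApx (R : ℝ) (m : ℕ → ℝ) (K : ℕ) (f : ℝ → ℂ) (g : ℂ) (ε : ℝ) : Prop :=
  ∃ (V : Type) (_ : Fintype V) (w lam : V → ℝ), (∀ i, 0 ≤ w i) ∧ (∀ i, |lam i| ≤ R) ∧
    (∀ k ≤ K, ∑ i, w i * lam i ^ k = m k) ∧ ‖g - ∑ i, w i * f (lam i)‖ ≤ ε

theorem dos_eval {V : Type} [Fintype V] {w lam : V → ℝ} {m : ℕ → ℝ} {p : ℝ[X]}
    (h : ∀ k ≤ p.natDegree, ∑ i, w i * lam i ^ k = m k) : dosL m p = ∑ i, w i * p.eval (lam i) := by
  simp only [dosL_apply, eval_eq_sum, Polynomial.sum, Finset.mul_sum]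
  rw [Finset.sum_comm]
  refine Finset.sum_congr rfl fun k hk => ?_
  rw [← h k (le_natDegree_of_mem_supp k hk), Finset.mul_sum]
  exact Finset.sum_congr rfl fun i _ => by ring

theorem dos_abs {Ω : Type} [MeasurableSpace Ω] (P : Measure Ω) [IsProbabilityMeasure P] {R : ℝ}
    (hR : 0 < R) (m : Ω → ℕ → ℝ) (hm : ∀ k, Integrable (fun ω => m ω k) P) (h0 : ∀ ω, m ω 0 = 1)
    (hpos : ∀ ω K, ∃ f g ε, DosApx R (m ω) K f g ε) :
    ∃ ν : Measure ℝ, IsProbabilityMeasure ν ∧ ν (Set.Icc (-R) R)ᶜ = 0 ∧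
      (∀ k, ∫ x, x ^ k ∂ν = ∫ ω, m ω k ∂P) ∧
      ∀ (f : ℝ → ℂ) (g : Ω → ℂ), Continuous f → Integrable g P →
        (∀ ω K ε, 0 < ε → DosApx R (m ω) K f (g ω) ε) → ∫ x, f x ∂ν = ∫ ω, g ω ∂P := by
  have hI : ∀ p : ℝ[X], Integrable (fun ω => dosL (m ω) p) P := fun p => by
    simp only [dosL_apply]
    exact integrable_finsetSum _ fun k _ => (hm k).const_mul _
  have hE : ∀ p : ℝ[X], dosL (fun k => ∫ ω, m ω k ∂P) p = ∫ ω, dosL (m ω) p ∂P := fun p => by
    simp only [dosL_apply]
    rw [integral_finsetSum _ fun k _ => (hm k).const_mul _]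
    simp only [integral_const_mul]
  obtain ⟨ν, hν, hs, H⟩ := dos_moment hR (fun k => ∫ ω, m ω k ∂P) (by simp [h0]) fun p hp => by
    rw [hE]
    refine integral_nonneg fun ω => ?_
    obtain ⟨f, g, ε, V, _, w, lam, hw, hl, hk, -⟩ := hpos ω p.natDegree
    change 0 ≤ dosL (m ω) p
    rw [dos_eval hk]
    exact Finset.sum_nonneg fun i _ => mul_nonneg (hw i) (hp _ (abs_le.1 (hl i)))
  have hae : ∀ᵐ x ∂ν, x ∈ Set.Icc (-R) R := hs
  have hint : ∀ {E : Type} [NormedAddCommGroup E] {f : ℝ → E}, Continuous f → Integrable f ν := by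
    intro E _ f hf
    rw [← integrableOn_univ, ← Measure.restrict_eq_self_of_ae_mem hae, IntegrableOn, Measure.restrict_univ]
    exact hf.continuousOn.integrableOn_compact isCompact_Icc
  refine ⟨ν, hν, hs, fun k => ?_, fun f g hf hg hA => ?_⟩
  · simpa [dosL_apply] using H (X ^ k)
  have key : ∀ L : ℂ →L[ℝ] ℝ, (∀ y, |L y| ≤ ‖y‖) → L (∫ x, f x ∂ν) = L (∫ ω, g ω ∂P) := by
    intro L hL
    rw [← L.integral_comp_comm (hint hf), ← L.integral_comp_comm hg]
    refine eq_of_forall_dist_le fun ε hε => ?_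
    obtain ⟨p, hp⟩ := exists_polynomial_near_of_continuousOn (-R) R (fun x => L (f x))
      (L.continuous.comp hf).continuousOn (ε / 3) (by positivity)
    have h1 : dist (∫ x, L (f x) ∂ν) (∫ x, p.eval x ∂ν) ≤ ε / 3 := by
      rw [dist_eq_norm, ← integral_sub (hint (f := fun x => L (f x)) (L.continuous.comp hf))
        (hint p.continuous)]
      refine (norm_integral_le_of_norm_le_const (C := ε / 3) ?_).trans (by simp)
      filter_upwards [hae] with x hx
      rw [Real.norm_eq_abs, abs_sub_comm]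
      exact (hp x hx).le
    have h2 : dist (∫ ω, dosL (m ω) p ∂P) (∫ ω, L (g ω) ∂P) ≤ 2 * (ε / 3) := by
      rw [dist_eq_norm, ← integral_sub (hI p) (L.integrable_comp hg)]
      refine (norm_integral_le_of_norm_le_const (C := 2 * (ε / 3)) ?_).trans (by simp)
      refine Eventually.of_forall fun ω => ?_
      obtain ⟨V, _, w, lam, hw, hl, hk, hg'⟩ := hA ω p.natDegree (ε / 3) (by positivity)
      have h3 := (hL _).trans hg'
      have h4 : ∑ i, w i = 1 := by simpa [h0] using hk 0 (Nat.zero_le _)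
      have h5 : L (∑ i, w i * f (lam i)) = ∑ i, w i * L (f (lam i)) := by
        rw [map_sum]
        exact Finset.sum_congr rfl fun i _ => by rw [← Complex.real_smul, map_smul, smul_eq_mul]
      have h6 : |∑ i, w i * p.eval (lam i) - ∑ i, w i * L (f (lam i))| ≤ ε / 3 := by
        rw [← Finset.sum_sub_distrib]
        refine (Finset.abs_sum_le_sum_abs _ _).trans ?_
        calc _ ≤ ∑ i, w i * (ε / 3) := Finset.sum_le_sum fun i _ => by
              rw [← mul_sub, abs_mul, abs_of_nonneg (hw i)]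
              exact mul_le_mul_of_nonneg_left (hp _ (abs_le.1 (hl i))).le (hw i)
          _ = _ := by rw [← Finset.sum_mul, h4, one_mul]
      rw [map_sub, h5] at h3
      rw [dos_eval hk, Real.norm_eq_abs, abs_le] at *
      constructor <;> linarith [h3.1, h3.2, h6.1, h6.2]
    rw [H, hE] at h1
    linarith [dist_triangle (∫ x, L (f x) ∂ν) (∫ ω, dosL (m ω) p ∂P) (∫ ω, L (g ω) ∂P)]
  exact Complex.ext (key Complex.reCLM Complex.abs_re_le_norm) (key Complex.imCLM Complex.abs_im_le_norm)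

end Crest.Agent.R166
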