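import Crest.Agent.R166.Iface

/-! Row 166, block DOS: Stieltjes inversion. -/

set_option autoImplicit false

open MeasureTheory Filter Topology Set
open scoped BigOperators

noncomputable section

namespace Crest.Agent.R166

/-- Poisson kernel -/
def dosP (η x E : ℝ) : ℝ := η / ((x - E) ^ 2 + η ^ 2) / Real.pi

theorem dosP_nonneg {η : ℝ} (hη : 0 < η) (x E : ℝ) : 0 ≤ dosP η x E := by unfold dosP; positivity

theorem dosP_le {η : ℝ} (hη : 0 < η) (x E : ℝ) : ‖dosP η x E‖ ≤ η / η ^ 2 / Real.pi := by
  rw [Real.norm_of_nonneg (dosP_nonneg hη x E), dosP]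
  gcongr
  exact le_add_of_nonneg_left (sq_nonneg _)

theorem dosP_cont {η : ℝ} (hη : 0 < η) : Continuous fun p : ℝ × ℝ => dosP η p.1 p.2 := by
  unfold dosP
  exact (continuous_const.div (by fun_prop) fun p => by positivity).div_const _

theorem dos_inv_le {z : ℂ} (hz : 0 < z.im) (x : ℝ) : ‖((x : ℂ) - z)⁻¹‖ ≤ z.im⁻¹ := by
  rw [norm_inv]
  refine inv_anti₀ hz ?_
  simpa [abs_of_pos hz] using Complex.abs_im_le_norm ((x : ℂ) - z)

theorem dos_ne {z : ℂ} (hz : 0 < z.im) (x : ℝ) : (x : ℂ) - z ≠ 0 := fun h => by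
  have := congrArg Complex.im h
  simp at this
  exact hz.ne' this

theorem dos_inv_cont {z : ℂ} (hz : 0 < z.im) : Continuous fun x : ℝ => ((x : ℂ) - z)⁻¹ :=
  (Complex.continuous_ofReal.sub continuous_const).inv₀ (dos_ne hz)

variable (ν : Measure ℝ) [IsProbabilityMeasure ν]

theorem dos_im (E : ℝ) (k : ℕ) : (∫ x, ((x : ℂ) - zk E k)⁻¹ ∂ν).im / Real.pi =
    ∫ x, dosP (2⁻¹ ^ k) x E ∂ν := by
  have hz : 0 < (zk E k).im := by simp [zk, -Complex.ofReal_pow]
  have hi : Integrable (fun x : ℝ => ((x : ℂ) - zk E k)⁻¹) ν :=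
    Integrable.of_bound (dos_inv_cont hz).aestronglyMeasurable _ (Eventually.of_forall (dos_inv_le hz))
  rw [← Complex.imCLM_apply, ← Complex.imCLM.integral_comp_comm hi, ← integral_div]
  refine integral_congr_ae (Eventually.of_forall fun x => ?_)
  simp [dosP, zk, Complex.inv_im, Complex.normSq_apply, sq, -Complex.ofReal_pow, -inv_pow]

theorem dos_cont {η : ℝ} (hη : 0 < η) : Continuous fun E => ∫ x, dosP η x E ∂ν :=
  continuous_of_dominated
    (fun E => ((dosP_cont hη).comp (continuous_id.prodMk continuous_const)).aestronglyMeasurable)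
    (fun E => Eventually.of_forall fun x => dosP_le hη x E) (integrable_const _)
    (Eventually.of_forall fun x => (dosP_cont hη).comp (continuous_const.prodMk continuous_id))

theorem dos_fub {η : ℝ} (hη : 0 < η) {h : ℝ → ℝ} (hc : Continuous h) (hi : Integrable h) :
    ∫ E, h E * ∫ x, dosP η x E ∂ν = ∫ x, (∫ t, h (x + η * t) * ((1 + t ^ 2)⁻¹ / Real.pi)) ∂ν := by
  simp only [← integral_const_mul]
  rw [integral_integral_swap]
  · refine integral_congr_ae (Eventually.of_forall fun x => ?_)
    have e := Measure.integral_comp_mul_left (fun y => h (x + y) * dosP η x (x + y)) η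
    rw [integral_add_left_eq_self (fun y => h y * dosP η x y), abs_of_pos (inv_pos.2 hη), smul_eq_mul,
      ← mul_right_inj' hη.ne', mul_inv_cancel_left₀ hη.ne', ← integral_const_mul] at e
    simp only [← e]
    refine integral_congr_ae (Eventually.of_forall fun t => ?_)
    simp only [dosP]
    field_simp
    ring
  · refine (hi.norm.mul_prod (integrable_const (η / η ^ 2 / Real.pi))).mono'
      ((hc.comp continuous_fst).mul ((dosP_cont hη).comp continuous_swap)).aestronglyMeasurable
      (Eventually.of_forall fun p => ?_)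
    rw [Function.uncurry, norm_mul]
    exact mul_le_mul_of_nonneg_left (dosP_le hη _ _) (norm_nonneg _)

theorem dos_lim {h : ℝ → ℝ} (hc : Continuous h) {C : ℝ} (hC : ∀ x, ‖h x‖ ≤ C) :
    Tendsto (fun k : ℕ => ∫ x, (∫ t, h (x + 2⁻¹ ^ k * t) * ((1 + t ^ 2)⁻¹ / Real.pi)) ∂ν) atTop
      (𝓝 (∫ x, h x ∂ν)) := by
  have hw : Integrable fun t : ℝ => (1 + t ^ 2)⁻¹ / Real.pi := integrable_inv_one_add_sq.div_const _
  have hw1 : ∫ t : ℝ, (1 + t ^ 2)⁻¹ / Real.pi = 1 := by
    rw [integral_div, integral_univ_inv_one_add_sq, div_self Real.pi_ne_zero]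
  have hwc : Continuous fun t : ℝ => (1 + t ^ 2)⁻¹ / Real.pi :=
    (Continuous.inv₀ (by fun_prop) fun t => by positivity).div_const _
  have hb : ∀ y t : ℝ, ‖h y * ((1 + t ^ 2)⁻¹ / Real.pi)‖ ≤ C * ((1 + t ^ 2)⁻¹ / Real.pi) := fun y t => by
    rw [norm_mul, Real.norm_of_nonneg (by positivity : 0 ≤ (1 + t ^ 2)⁻¹ / Real.pi)]
    exact mul_le_mul_of_nonneg_right (hC y) (by positivity)
  refine tendsto_integral_of_dominated_convergence (fun _ => C) (fun k => ?_) (integrable_const _)
    (fun k => Eventually.of_forall fun x => ?_) (Eventually.of_forall fun x => ?_)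
  · refine (StronglyMeasurable.integral_prod_right ?_).aestronglyMeasurable
    exact ((hc.comp (by fun_prop)).mul (hwc.comp continuous_snd)).stronglyMeasurable
  · refine (norm_integral_le_of_norm_le (hw.const_mul C) (Eventually.of_forall fun t => hb _ t)).trans ?_
    rw [integral_const_mul, hw1, mul_one]
  · have := tendsto_integral_of_dominated_convergence (μ := volume)
      (F := fun (k : ℕ) t => h (x + 2⁻¹ ^ k * t) * ((1 + t ^ 2)⁻¹ / Real.pi))
      (f := fun t => h x * ((1 + t ^ 2)⁻¹ / Real.pi)) _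
      (fun k => ((hc.comp (by fun_prop)).mul hwc).aestronglyMeasurable) (hw.const_mul C)
      (fun k => Eventually.of_forall fun t => hb _ t) (Eventually.of_forall fun t => by
        refine ((hc.tendsto x).comp ?_).mul_const _
        simpa using ((tendsto_pow_atTop_nhds_zero_of_lt_one (r := (2⁻¹ : ℝ)) (by norm_num)
          (by norm_num)).mul_const t).const_add x)
    rwa [integral_const_mul, hw1, mul_one] at this

theorem stInv : StInv := by
  intro ν _ ρ a b H
  simp only [dos_im] at H
  have hη : ∀ k : ℕ, (0 : ℝ) < 2⁻¹ ^ k := fun k => by positivity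
  have hρ : ContinuousOn ρ (Icc a b) :=
    H.continuousOn (Frequently.of_forall fun k => (dos_cont ν (hη k)).continuousOn)
  have hρ0 : ∀ E ∈ Icc a b, 0 ≤ ρ E := fun E hE =>
    ge_of_tendsto' (H.tendsto_at hE) fun k => integral_nonneg fun x => dosP_nonneg (hη k) x E
  have hρi : IntegrableOn ρ (Icc a b) := hρ.integrableOn_compact isCompact_Icc
  refine ⟨hρ, ?_⟩
  have key : ∀ (h : ℝ → ℝ) (C : ℝ), Continuous h → (∀ x, ‖h x‖ ≤ C) → (∀ x, x ∉ Icc a b → h x = 0) →
      ∫ x, h x ∂ν = ∫ E in Icc a b, h E * ρ E := by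
    intro h C hc hC h0
    have hi : Integrable h := hc.integrable_of_hasCompactSupport (HasCompactSupport.intro isCompact_Icc h0)
    refine tendsto_nhds_unique (dos_lim ν hc hC) ?_
    have e : ∀ k : ℕ, ∫ x, (∫ t, h (x + 2⁻¹ ^ k * t) * ((1 + t ^ 2)⁻¹ / Real.pi)) ∂ν =
        ∫ E in Icc a b, h E * ∫ x, dosP (2⁻¹ ^ k) x E ∂ν := fun k => by
      rw [← dos_fub ν (hη k) hc hi, setIntegral_eq_integral_of_forall_compl_eq_zero fun x hx => by
        rw [h0 x hx, zero_mul]]
    simp only [e]
    refine tendsto_integral_filter_of_dominated_convergence (fun E => C * (‖ρ E‖ + 1))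
      (Eventually.of_forall fun k => (hc.mul (dos_cont ν (hη k))).aestronglyMeasurable) ?_
      ((hρi.norm.add (integrable_const _)).const_mul C) ?_
    · filter_upwards [Metric.tendstoUniformlyOn_iff.1 H 1 one_pos] with k hk
      filter_upwards [ae_restrict_mem measurableSet_Icc] with E hE
      rw [norm_mul]
      refine mul_le_mul (hC E) ?_ (norm_nonneg _) ((norm_nonneg _).trans (hC E))
      have := hk E hE
      rw [dist_comm, dist_eq_norm] at this
      linarith [norm_sub_norm_le (∫ x, dosP (2⁻¹ ^ k) x E ∂ν) (ρ E)]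
    · filter_upwards [ae_restrict_mem measurableSet_Icc] with E hE
      exact (H.tendsto_at hE).const_mul _
  have hρi' : IntegrableOn ρ (Ioo a b) := hρi.mono_set Ioo_subset_Icc_self
  have := isFiniteMeasure_withDensity_ofReal hρi'.2
  refine ext_of_forall_integral_eq_of_IsFiniteMeasure fun f => ?_
  rw [integral_withDensity_eq_integral_toReal_smul₀ hρi'.1.aemeasurable.ennreal_ofReal
    (Eventually.of_forall fun _ => ENNReal.ofReal_lt_top)]
  let χ : ℕ → ℝ → ℝ := fun n x => min 1 (n * max 0 (min (x - a) (b - x)))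
  have χc : ∀ n, Continuous (χ n) := fun n => by fun_prop
  have χ0 : ∀ n x, x ∉ Ioo a b → χ n x = 0 := fun n x hx => by
    have : min (x - a) (b - x) ≤ 0 := by
      by_contra h1
      rw [not_le, lt_min_iff] at h1
      exact hx ⟨by linarith [h1.1], by linarith [h1.2]⟩
    simp [χ, max_eq_left this]
  have χb : ∀ n x, ‖f x * χ n x‖ ≤ ‖f‖ := fun n x => by
    rw [norm_mul, Real.norm_of_nonneg (le_min zero_le_one (by positivity) : 0 ≤ χ n x)]
    exact (mul_le_of_le_one_right (norm_nonneg _) (min_le_left _ _)).trans (f.norm_coe_le_norm x)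
  have χl : ∀ x, Tendsto (fun n => f x * χ n x) atTop (𝓝 ((Ioo a b).indicator f x)) := fun x => by
    by_cases hx : x ∈ Ioo a b
    · have h1 : 0 < max 0 (min (x - a) (b - x)) :=
        lt_max_of_lt_right (lt_min (sub_pos.2 hx.1) (sub_pos.2 hx.2))
      rw [indicator_of_mem hx]
      refine tendsto_const_nhds.congr' ?_
      filter_upwards [(tendsto_natCast_atTop_atTop.atTop_mul_const h1).eventually_ge_atTop 1] with n hn
      simp only [χ, min_eq_left hn, mul_one]
    · simp [χ0 _ x hx, indicator_of_notMem hx]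
  have l1 := tendsto_integral_of_dominated_convergence (μ := ν) _
    (fun n => (f.continuous.mul (χc n)).aestronglyMeasurable) (integrable_const ‖f‖)
    (fun n => Eventually.of_forall (χb n)) (Eventually.of_forall χl)
  have l2 := tendsto_integral_of_dominated_convergence (μ := volume.restrict (Icc a b))
    (F := fun n x => f x * χ n x * ρ x) (f := fun x => (Ioo a b).indicator f x * ρ x) _
    (fun n => (f.continuous.mul (χc n)).aestronglyMeasurable.mul hρi.1) (hρi.norm.const_mul ‖f‖)
    (fun n => Eventually.of_forall fun x => by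
      rw [norm_mul]
      exact mul_le_mul_of_nonneg_right (χb n x) (norm_nonneg _))
    (Eventually.of_forall fun x => (χl x).mul_const _)
  rw [← integral_indicator measurableSet_Ioo, tendsto_nhds_unique l1 (l2.congr fun n =>
    (key _ _ (f.continuous.mul (χc n)) (χb n) fun x hx => by
      rw [Pi.mul_apply, χ0 n x fun h => hx (Ioo_subset_Icc_self h), mul_zero]).symm), integral_Icc_eq_integral_Ioo]
  refine setIntegral_congr_fun measurableSet_Ioo fun x hx => ?_
  simp only [indicator_of_mem hx, ENNReal.toReal_ofReal (hρ0 x (Ioo_subset_Icc_self hx)), smul_eq_mul,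
    mul_comm]

end Crest.Agent.R166
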