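import Crest.Agent.R166.DOS.Op

/-! Row 166, block DOS: moments of the tree operator, and the density-of-states measure. -/

set_option autoImplicit false

open MeasureTheory ProbabilityTheory Filter Topology
open scoped BigOperators

noncomputable section

namespace Crest.Agent.R166

open Crest.ProbabilityR.RandomMatrix

variable {d : ℕ}

theorem dos_moves (φ : List (Fin d) → ℝ) (l : List (Fin d)) :
    ((treeMoves d l).map φ).sum = dosC φ l + if l = [] then 0 else φ l.tail := by
  rw [treeMoves, List.map_append, List.sum_append, List.map_map, dosC, Fin.sum_univ_def]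
  congr 1
  · induction List.finRange d with
    | nil => simp
    | cons b L ih => by_cases hb : l.head? = some b <;> simp_all
  · split_ifs <;> simp

theorem dos_moves_ne {l u : List (Fin d)} (h : u ∈ treeMoves d l) : u ≠ l := by
  rintro rfl
  rw [treeMoves, List.mem_append] at h
  rcases h with h | h
  · simp at h
  · cases u <;> simp at h

/-- the weight of a lazy walk -/
def dosW (v : List (Fin d) → ℝ) (w : List (List (Fin d))) : ℝ :=
  ((w.zip w.tail).map fun p => if p.1 = p.2 then v p.1 else 1).prod

theorem dos_walk_ne {k : ℕ} {w : List (List (Fin d))} (h : w ∈ lazyWalks d k) : w ≠ [] := by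
  cases k with
  | zero => simp_all [lazyWalks]
  | succ k =>
    simp only [lazyWalks, List.mem_flatMap, List.mem_map] at h
    obtain ⟨_, _, _, _, rfl⟩ := h
    exact List.cons_ne_nil _ _

theorem dos_walks (v : List (Fin d) → ℝ) (k : ℕ) (φ : List (Fin d) → ℝ) :
    ((lazyWalks d k).map fun w => dosW v w * φ (w.headD [])).sum = (dosH v ^ k) φ [] := by
  induction k generalizing φ with
  | zero => simp [lazyWalks, dosW]
  | succ k ih =>
    rw [pow_succ, Module.End.mul_apply, ← ih, lazyWalks, List.map_flatMap, List.flatMap_def,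
      List.sum_flatten, List.map_map]
    refine congrArg List.sum (List.map_congr_left fun w hw => ?_)
    obtain ⟨h, t, rfl⟩ := List.exists_cons_of_ne_nil (dos_walk_ne hw)
    have e : ∀ u, dosW v (u :: h :: t) = (if u = h then v u else 1) * dosW v (h :: t) := fun u => by
      simp [dosW]
    change _ = dosW v (h :: t) * dosHf v φ h
    rw [dosHf, add_assoc, ← dos_moves, mul_add, ← List.sum_map_mul_left]
    simp only [Function.comp, List.headD_cons, List.map_cons, List.sum_cons, List.map_map, e, if_true,
      smul_eq_mul]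
    congr 1
    · ring
    · refine congrArg List.sum (List.map_congr_left fun u hu => ?_)
      simp [e, dos_moves_ne hu]

theorem dosW_eq (v : List (Fin d) → ℝ) (w : List (List (Fin d))) :
    dosW v w = ∏ u ∈ w.toFinset, v u ^ stayCount w u := by
  have : ∀ P : List (List (Fin d) × List (Fin d)), (∀ p ∈ P, p.1 ∈ w.toFinset) →
      (P.map fun p => if p.1 = p.2 then v p.1 else 1).prod =
        ∏ u ∈ w.toFinset, v u ^ P.countP fun p => p.1 = u ∧ p.2 = u := by
    intro P hP
    induction P with
    | nil => simp
    | cons p P ih =>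
      simp only [List.map_cons, List.prod_cons, List.countP_cons, pow_add, Finset.prod_mul_distrib]
      rw [ih fun p hp => hP p (List.mem_cons_of_mem _ hp), mul_comm]
      congr 1
      rw [Finset.prod_eq_single_of_mem p.1 (hP p List.mem_cons_self) fun u _ hu => by simp [hu.symm]]
      by_cases h : p.1 = p.2
      · simp [h]
      · simp [h, Ne.symm h]
  exact this _ fun p hp => List.mem_toFinset.2 (List.of_mem_zip hp).1

instance dos_uII : IsProbabilityMeasure uII := by
  have : IsProbabilityMeasure ((2⁻¹ : NNReal) • volume.restrict (Set.Icc (-1 : ℝ) 1)) := ⟨by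
    simp only [Measure.smul_apply, Measure.restrict_apply_univ, Real.volume_Icc]
    norm_num [ENNReal.smul_def, ENNReal.inv_mul_cancel]⟩
  exact Measure.isProbabilityMeasure_map continuous_projIcc.measurable.aemeasurable

theorem dos_unif (s : ℝ) (n : ℕ) : ∫ x : II, (s * x) ^ n ∂uII = s ^ n * uniformMoment n := by
  rw [uII, integral_map continuous_projIcc.measurable.aemeasurable (by fun_prop),
    integral_smul_nnreal_measure, setIntegral_congr_fun (g := fun x => s ^ n * x ^ n) measurableSet_Icc
      fun x hx => by simp only [Set.projIcc_of_mem _ hx, mul_pow],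
    integral_const_mul, integral_Icc_eq_integral_Ioc, ← intervalIntegral.integral_of_le (by norm_num),
    integral_pow, uniformMoment, NNReal.smul_def]
  rcases Nat.even_or_odd n with h | h
  · rw [if_pos h, h.add_one.neg_one_pow]
    simp
    ring
  · rw [if_neg (Nat.not_even_iff_odd.2 h), h.add_one.neg_one_pow]
    simp

instance dos_env (q : ℕ) (π : Measure II) [IsProbabilityMeasure π] : IsProbabilityMeasure (envLaw q π) := by
  unfold envLaw; infer_instance

theorem dos_integrable {q : ℕ} {E : Type} [NormedAddCommGroup E] {f : Env q → E} (hf : Continuous f) :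
    Integrable f (envLaw q uII) :=
  hf.integrable_of_hasCompactSupport (HasCompactSupport.of_compactSpace _)

theorem dos_indep (s : ℝ) (S : Finset (List (Fin d))) (n : List (Fin d) → ℕ) :
    ∫ ω, ∏ u ∈ S, (s * (ω u.reverse : ℝ)) ^ n u ∂envLaw d uII = ∏ u ∈ S, s ^ n u * uniformMoment (n u) := by
  have h := (iIndepFun_infinitePi (P := fun _ : List (Fin d) => uII) (X := fun _ x => x)
    fun _ => measurable_id).precomp (g := fun u : S => u.1.reverse)
    (List.reverse_injective.comp Subtype.val_injective)
  have := h.integral_fun_prod_comp (f := fun (u : S) (x : II) => (s * (x : ℝ)) ^ n u)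
    (fun u => (measurable_pi_apply _).aemeasurable) fun u => by fun_prop
  simp only [← Finset.prod_coe_sort S]
  refine this.trans (Finset.prod_congr rfl fun u _ => ?_)
  rw [← dos_unif, ← integral_map (f := fun x : II => (s * (x : ℝ)) ^ n u)
    (φ := fun ω : List (Fin d) → II => ω u.1.reverse) (measurable_pi_apply _).aemeasurable (by fun_prop), Measure.infinitePi_map_eval]

theorem dos_mom (s : ℝ) (k : ℕ) :
    Continuous (fun ω : Env d => dosm (fun l => s * (ω l.reverse : ℝ)) k) ∧
      ∫ ω, dosm (fun l => s * (ω l.reverse : ℝ)) k ∂envLaw d uII = treeMoment d s k := by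
  simp only [dosm, ← dos_walks, dosW_eq, treeMoment]
  induction lazyWalks d k with
  | nil => simp [continuous_const]
  | cons w L ih =>
    have hc : Continuous fun ω : Env d => (∏ u ∈ w.toFinset, (s * (ω u.reverse : ℝ)) ^ stayCount w u) *
        if w.headD [] = [] then (1 : ℝ) else 0 := by fun_prop
    simp only [List.map_cons, List.sum_cons]
    refine ⟨hc.add ih.1, ?_⟩
    rw [integral_add (dos_integrable hc) (dos_integrable ih.1), ih.2, integral_mul_const, dos_indep,
      show w.toFinset = w.dedup.toFinset by ext; simp, List.prod_toFinset _ (List.nodup_dedup w)]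
    by_cases h : w.headD [] = [] <;> simp only [List.filter_cons, h] <;> simp

/-- root-first letters of the path below a vertex entered with the letter `a` -/
def dosPath {q : ℕ} : Fin (q + 1) → List (Fin q) → List (Fin (q + 1))
  | _, [] => []
  | a, j :: k => a.succAbove j :: dosPath (a.succAbove j) k

theorem dosPath_inj {q : ℕ} (a : Fin (q + 1)) : Function.Injective (dosPath a) := by
  intro k k' h
  induction k generalizing a k' with
  | nil => cases k' <;> simp_all [dosPath]
  | cons j k ih =>
    cases k' with
    | nil => simp [dosPath] at h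
    | cons j' k' =>
      simp only [dosPath, List.cons.injEq, Fin.succAbove_right_inj] at h
      obtain ⟨rfl, h⟩ := h
      rw [ih _ h]

/-- the environment below the word `a :: l` -/
def dosE {q : ℕ} (ω : Env (q + 1)) (a : Fin (q + 1)) (l : List (Fin (q + 1))) : Env q :=
  fun k => ω (l.reverse ++ a :: dosPath a k)

theorem dos_mp (hE : StEnv) (q : ℕ) :
    MeasurePreserving (fun ω : Env (q + 1) => ((ω [], fun b => dosE ω b []) : SEnv q))
      (envLaw (q + 1) uII) (starLaw q uII) :=
  ((MeasurePreserving.id uII).prod (measurePreserving_pi _ _ fun b : Fin (q + 1) =>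
    (⟨by fun_prop, Measure.map_infinitePi_infinitePi_of_inj (dosPath_inj b)⟩ : MeasurePreserving
      (fun (β : Env (q + 1)) k => β (dosPath b k)) (envLaw (q + 1) uII) (envLaw q uII)))).comp
    (hE (q + 1) uII).2.1

/-- the column of the resolvent -/
def dosX {q : ℕ} (s : ℝ) (z : ℂ) (ω : Env (q + 1)) : List (Fin (q + 1)) → ℂ
  | [] => Psi s z (ω []) fun b => mT s z (dosE ω b [])
  | a :: l => -(dosX s z ω l * mT s z (dosE ω a l))

theorem dos_psi {n : ℕ} (s : ℝ) {z : ℂ} (hz : 0 < z.im) (a : II) {Y : Fin n → ℂ} (hY : ∀ j, 0 < (Y j).im) :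
    z - s * (a : ℝ) + ∑ j, Y j ≠ 0 := fun h => by
  have h1 := congrArg Complex.im h
  have h2 : 0 ≤ ∑ j, (Y j).im := Finset.sum_nonneg fun j _ => (hY j).le
  simp [Complex.im_sum] at h1
  linarith

theorem stDOS (hT : StT0) (hE : StEnv) : StDOS := by
  intro q s hs0 hs1
  have hv : ∀ (ω : Env (q + 1)) (l : List (Fin (q + 1))), |s * (ω l.reverse : ℝ)| ≤ s := fun ω l => by
    rw [abs_mul, abs_of_nonneg hs0]
    exact mul_le_of_le_one_right hs0 (abs_le.2 (ω l.reverse).2)
  have key : ∀ z : ℂ, 0 < z.im → ∀ (ω : Env (q + 1)) (K : ℕ) (ε : ℝ), 0 < ε →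
      DosApx ((q + 1 : ℕ) + s) (dosm fun l => s * (ω l.reverse : ℝ)) K (fun t => ((t : ℂ) - z)⁻¹)
        (dosX s z ω []) ε := by
    intro z hz ω
    obtain ⟨-, -, h⟩ := (hT q s hs0 hs1).1 z hz
    have hM : ∀ l, dosC (dosX s z ω) l = -(dosX s z ω l * dosC (fun l => match l with
        | [] => 0
        | a :: l => mT s z (dosE ω a l)) l) := fun l => by
      simp only [dosC, dosX, Finset.mul_sum, ← Finset.sum_neg_distrib, mul_ite, mul_zero]
      exact Finset.sum_congr rfl fun b _ => by split_ifs <;> simp
    refine dos_apx (C := (q + 1 : ℕ) * z.im⁻¹) (hv ω) hz (fun l => ?_) hM (fun l => ?_) fun l => ?_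
    · rw [dosHf, hM]
      cases l with
      | nil =>
        have := dos_psi s hz (ω []) fun b => (h (dosE ω b [])).1
        simp only [dosC, dosX, Psi, List.head?_nil, reduceCtorEq, if_false, if_true, List.reverse_nil,
          Complex.real_smul, Complex.ofReal_mul]
        field_simp
        ring
      | cons a l =>
        have e1 : ∀ j, child (dosE ω a l) j = dosE ω (a.succAbove j) (a :: l) := fun j => by
          funext k
          simp [child, dosE, dosPath]
        have e2 : dosE ω a l [] = ω (a :: l).reverse := by simp [dosE, dosPath]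
        have e3 := (h (dosE ω a l)).2.2
        have := dos_psi s hz (ω (a :: l).reverse) fun j => (h (dosE ω (a.succAbove j) (a :: l))).1
        simp only [e1, e2, Psi] at e3
        rw [dosC, Fin.sum_univ_succAbove _ a]
        simp only [dosX, List.head?_cons, Option.some.injEq, if_true, Fin.ne_succAbove, if_false,
          reduceCtorEq, List.tail_cons, Complex.real_smul, Complex.ofReal_mul, e3]
        field_simp
        ring
    · rw [dosC, Complex.im_sum]
      refine Finset.sum_nonneg fun b _ => ?_
      split_ifs
      · rfl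
      · exact (h _).1.le
    · refine (norm_sum_le _ _).trans ((Finset.sum_le_card_nsmul _ _ z.im⁻¹ fun b _ => ?_).trans (by simp))
      split_ifs
      · simpa using hz.le
      · exact (h _).2.1
  obtain ⟨ν, hν, h1, h2, h3⟩ := dos_abs (envLaw (q + 1) uII) (R := (q + 1 : ℕ) + s) (by positivity)
    (fun ω => dosm fun l => s * (ω l.reverse : ℝ)) (fun k => dos_integrable (dos_mom s k).1)
    (fun ω => by simp [dosm]) fun ω K => ⟨_, _, _, key Complex.I (by simp) ω K 1 one_pos⟩
  refine ⟨ν, ⟨hν, h1, fun k => (h2 k).trans (dos_mom s k).2⟩, fun z hz => ?_⟩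
  obtain ⟨-, hc, h⟩ := (hT q s hs0 hs1).1 z hz
  have hg : Continuous fun e : SEnv q => GS s z e none none := by
    change Continuous fun e : SEnv q => -(z - s * (e.1 : ℝ) + ∑ j, mT s z (e.2 j))⁻¹
    exact (Continuous.inv₀ (by fun_prop) fun e : SEnv q => dos_psi s hz e.1 fun b => (h (e.2 b)).1).neg
  have hΦ : Continuous fun ω : Env (q + 1) => ((ω [], fun b => dosE ω b []) : SEnv q) := by
    unfold dosE
    fun_prop
  have e : ∀ ω : Env (q + 1), dosX s z ω [] = GS s z (ω [], fun b => dosE ω b []) none none :=
    fun ω => by simp only [dosX, GS, GamS]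
  rw [h3 _ (fun ω => GS s z (ω [], fun b => dosE ω b []) none none) (dos_inv_cont hz)
    (dos_integrable (hg.comp hΦ)) fun ω K ε hε => e ω ▸ key z hz ω K ε hε, gbar,
    ← (dos_mp hE q).map_eq, integral_map hΦ.measurable.aemeasurable hg.aestronglyMeasurable]

end Crest.Agent.R166
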