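import Crest.Agent.R166.DOS.Abs
import Crest.Agent.R166.DOS.Inv

/-! Row 166, block DOS: the tree operator on words, its truncations and their spectral decomposition. -/

set_option autoImplicit false

open Filter Topology Matrix
open scoped BigOperators ComplexConjugate

noncomputable section

namespace Crest.Agent.R166

variable {d : ℕ}

section defs
variable {E : Type} [AddCommGroup E] [Module ℝ E]

/-- sum over the children -/
def dosC (φ : List (Fin d) → E) (l : List (Fin d)) : E := ∑ b, if l.head? = some b then 0 else φ (b :: l)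

/-- the tree operator with potential `v` -/
def dosHf (v : List (Fin d) → ℝ) (φ : List (Fin d) → E) (l : List (Fin d)) : E :=
  v l • φ l + dosC φ l + if l = [] then 0 else φ l.tail

end defs

def dosH (v : List (Fin d) → ℝ) : Module.End ℝ (List (Fin d) → ℝ) where
  toFun := dosHf v
  map_add' φ ψ := by
    funext l
    simp only [dosHf, dosC, Pi.add_apply, smul_eq_mul]
    rw [show (∑ b, if l.head? = some b then 0 else φ (b :: l) + ψ (b :: l)) =
      ∑ b, ((if l.head? = some b then 0 else φ (b :: l)) + if l.head? = some b then 0 else ψ (b :: l)) from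
      Finset.sum_congr rfl fun b _ => by split_ifs <;> simp, Finset.sum_add_distrib]
    split_ifs <;> ring
  map_smul' c φ := by
    funext l
    simp only [dosHf, dosC, Pi.smul_apply, smul_eq_mul, RingHom.id_apply, mul_add, Finset.mul_sum, mul_ite,
      mul_zero]
    ring

/-- the moments `⟨δ, H^k δ⟩` -/
def dosm (v : List (Fin d) → ℝ) (k : ℕ) : ℝ := (dosH v ^ k) (fun l => if l = [] then 1 else 0) []

/-- reduced words of length at most `N` -/
def dosB (d N : ℕ) : Finset (List (Fin d)) :=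
  ((List.finite_length_le (Fin d) N).toFinset).filter fun l => l.IsChain (· ≠ ·)

theorem mem_dosB {N : ℕ} {l : List (Fin d)} : l ∈ dosB d N ↔ l.length ≤ N ∧ l.IsChain (· ≠ ·) := by
  simp [dosB]

theorem dosB_nil (N : ℕ) : [] ∈ dosB d N := by simp [mem_dosB]

theorem dosB_tail {N : ℕ} {l : List (Fin d)} (h : l ∈ dosB d N) : l.tail ∈ dosB d N := by
  rw [mem_dosB] at h ⊢
  exact ⟨by rw [List.length_tail]; omega, h.2.tail⟩

theorem dosB_cons {N : ℕ} {l : List (Fin d)} (h : l ∈ dosB d N) (b : Fin d) :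
    b :: l ∈ dosB d N ↔ l.length < N ∧ l.head? ≠ some b := by
  rw [mem_dosB] at h ⊢
  rw [List.isChain_cons]
  cases l <;> simp_all [Nat.succ_le_iff, eq_comm]

/-- matrix entries of the tree operator -/
def dosA (v : List (Fin d) → ℝ) (l l' : List (Fin d)) : ℝ :=
  (if l = l' then v l else 0) + (if l' ≠ [] ∧ l'.tail = l then 1 else 0) +
    if l ≠ [] ∧ l.tail = l' then 1 else 0

theorem dosA_symm (v : List (Fin d) → ℝ) (l l' : List (Fin d)) : dosA v l l' = dosA v l' l := by
  unfold dosA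
  by_cases h : l = l'
  · subst h; rfl
  · rw [if_neg h, if_neg (Ne.symm h)]; ring

theorem dos_row {E : Type} [AddCommGroup E] [Module ℝ E] (v : List (Fin d) → ℝ) (φ : List (Fin d) → E)
    {N : ℕ} {l : List (Fin d)} (h : l ∈ dosB d N) :
    ∑ l' ∈ dosB d N, dosA v l l' • φ l' = dosHf v φ l - if l.length = N then dosC φ l else 0 := by
  have e : ∀ l' : List (Fin d), (if l' ≠ [] ∧ l'.tail = l then φ l' else 0) =
      ∑ b, if b :: l = l' then φ l' else 0 := by
    intro l'
    cases l' with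
    | nil => simp
    | cons a t =>
      by_cases ht : l = t
      · simp [ht]
      · simp [ht, Ne.symm ht]
  simp only [dosA, add_smul, ite_smul, zero_smul, one_smul, Finset.sum_add_distrib, Finset.sum_ite_eq, h,
    if_true, e]
  rw [Finset.sum_comm]
  simp only [Finset.sum_ite_eq, dosB_cons h, dosHf, dosC]
  have h1 := (mem_dosB.1 h).1
  have e2 : (∑ l' ∈ dosB d N, if l ≠ [] ∧ l.tail = l' then φ l' else 0) = if l = [] then 0 else φ l.tail := by
    by_cases hl : l = [] <;> simp [hl, dosB_tail h]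
  rw [e2]
  by_cases hN : l.length = N
  · simp only [hN, lt_irrefl, false_and, if_false, if_true, Finset.sum_const_zero]
    abel
  · simp [hN, lt_of_le_of_ne h1 hN]

theorem dos_row0 (v : List (Fin d) → ℝ) {φ : List (Fin d) → ℝ} {N : ℕ} (hφ : ∀ l, l ∉ dosB d N → φ l = 0)
    {l : List (Fin d)} (h : l ∈ dosB d N) : ∑ l' ∈ dosB d N, dosA v l l' • φ l' = dosHf v φ l := by
  rw [dos_row v φ h, sub_eq_self]
  split_ifs with hN
  · refine Finset.sum_eq_zero fun b _ => ?_
    rw [hφ (b :: l) fun hb => by simpa [hN] using ((dosB_cons h b).1 hb).1, ite_self]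
  · rfl

theorem dosHf_le {v φ : List (Fin d) → ℝ} {s C : ℝ} (hv : ∀ l, |v l| ≤ s) (hφ : ∀ l, |φ l| ≤ C)
    (l : List (Fin d)) : |dosHf v φ l| ≤ (d + s) * C := by
  have h1 : |v l • φ l| ≤ s * C := by
    rw [smul_eq_mul, abs_mul]
    exact mul_le_mul (hv l) (hφ l) (abs_nonneg _) ((abs_nonneg _).trans (hv l))
  have h2 : dosC φ l + (if l = [] then 0 else φ l.tail) =
      ∑ b, if l.head? = some b then φ l.tail else φ (b :: l) := by
    cases l with
    | nil => simp [dosC]
    | cons a t =>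
      rw [if_neg (List.cons_ne_nil _ _), ← Finset.sum_ite_eq_of_mem Finset.univ a (fun _ => φ (a :: t).tail)
        (Finset.mem_univ _), dosC, ← Finset.sum_add_distrib]
      refine Finset.sum_congr rfl fun b _ => ?_
      by_cases hb : a = b <;> simp [hb]
  have h3 : |∑ b, if l.head? = some b then φ l.tail else φ (b :: l)| ≤ d * C := by
    refine (Finset.abs_sum_le_sum_abs _ _).trans ((Finset.sum_le_card_nsmul _ _ C fun b _ => ?_).trans ?_)
    · split_ifs <;> exact hφ _
    · simp
  rw [dosHf, add_assoc, h2]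
  linarith [abs_add_le (v l • φ l) (∑ b, if l.head? = some b then φ l.tail else φ (b :: l))]

theorem dos_spec0 {V : Type} [Fintype V] [DecidableEq V] {A : Matrix V V ℝ} (hA : A.IsHermitian) :
    ∃ (lam : V → ℝ) (u : V → V → ℝ), (∀ i, A *ᵥ u i = lam i • u i) ∧
      (∀ x y, ∑ i, u i x * u i y = if x = y then 1 else 0) ∧ ∀ i, u i ≠ 0 := by
  refine ⟨hA.eigenvalues, fun i => hA.eigenvectorBasis i, hA.mulVec_eigenvectorBasis, fun x y => ?_,
    fun i h => hA.eigenvectorBasis.orthonormal.ne_zero i (by ext x; exact congrFun h x)⟩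
  have := congrFun (congrFun (Matrix.mem_unitaryGroup_iff.1 hA.eigenvectorUnitary.2) x) y
  simpa [Matrix.mul_apply, Matrix.one_apply] using this

theorem dos_spec {v : List (Fin d) → ℝ} {s : ℝ} (hv : ∀ l, |v l| ≤ s) (N : ℕ) :
    ∃ (lam : dosB d N → ℝ) (U : dosB d N → List (Fin d) → ℝ), (∀ i, |lam i| ≤ d + s) ∧
      (∀ i, ∀ l ∈ dosB d N, ∑ l' ∈ dosB d N, dosA v l l' * U i l' = lam i * U i l) ∧
      (∀ l, ∑ i, U i l * U i [] = if l = [] then 1 else 0) ∧
      ∀ k ≤ N, ∑ i, U i [] * U i [] * lam i ^ k = dosm v k := by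
  obtain ⟨lam, u, h1, h2, h3⟩ := dos_spec0 (A := Matrix.of fun i j : dosB d N => dosA v i j)
    (by ext i j; simp [dosA_symm v i j])
  let U : dosB d N → List (Fin d) → ℝ := fun i l => if h : l ∈ dosB d N then u i ⟨l, h⟩ else 0
  have U0 : ∀ i l, l ∉ dosB d N → U i l = 0 := fun i l h => dif_neg h
  have U1 : ∀ i (l : dosB d N), U i l = u i l := fun i l => dif_pos l.2
  have e1 : ∀ i, ∀ l ∈ dosB d N, ∑ l' ∈ dosB d N, dosA v l l' * U i l' = lam i * U i l := fun i l hl => by
    rw [← Finset.sum_coe_sort, U1 i ⟨l, hl⟩]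
    simpa [U1, Matrix.mulVec, dotProduct] using congrFun (h1 i) ⟨l, hl⟩
  have e2 : ∀ i, ∀ l ∈ dosB d N, dosHf v (U i) l = lam i * U i l := fun i l hl =>
    (dos_row0 v (U0 i) hl).symm.trans (e1 i l hl)
  have e3 : ∀ l, ∑ i, U i l * U i [] = if l = [] then 1 else 0 := fun l => by
    by_cases hl : l ∈ dosB d N
    · simpa [U1 _ ⟨l, hl⟩, U1 _ ⟨[], dosB_nil N⟩] using h2 ⟨l, hl⟩ ⟨[], dosB_nil N⟩
    · simp [U0 _ l hl, show l ≠ [] from fun h => hl (h ▸ dosB_nil N)]
  have e4 : ∀ i k, ∀ l ∈ dosB d N, l.length + k ≤ N → (dosH v ^ k) (U i) l = lam i ^ k * U i l := by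
    intro i k
    induction k with
    | zero => simp
    | succ k ih =>
      intro l hl hk
      rw [pow_succ', Module.End.mul_apply, pow_succ, mul_assoc, ← e2 i l hl]
      change dosHf v _ l = _
      simp only [dosHf, dosC, smul_eq_mul, mul_add, Finset.mul_sum, mul_ite, mul_zero]
      rw [ih l hl (by omega), ih _ (dosB_tail hl) (by rw [List.length_tail]; omega), mul_left_comm]
      congr 2
      refine Finset.sum_congr rfl fun b _ => ?_
      split_ifs with hb
      · rfl
      · exact ih _ ((dosB_cons hl b).2 ⟨by omega, hb⟩) (by rw [List.length_cons]; omega)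
  refine ⟨lam, U, fun i => ?_, e1, e3, fun k hk => ?_⟩
  · obtain ⟨l, -, hl⟩ := Finset.exists_max_image Finset.univ (fun l => |u i l|) ⟨i, Finset.mem_univ _⟩
    have h0 : 0 < |u i l| := by
      obtain ⟨x, hx⟩ := Function.ne_iff.1 (h3 i)
      exact (abs_pos.2 hx).trans_le (hl x (Finset.mem_univ _))
    have := dosHf_le hv (φ := U i) (C := |u i l|) (fun x => by
      by_cases hx : x ∈ dosB d N
      · rw [U1 i ⟨x, hx⟩]
        exact hl _ (Finset.mem_univ _)
      · simp [U0 i x hx]) l
    rw [e2 i l l.2, abs_mul, U1] at this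
    exact le_of_mul_le_mul_right this h0
  · have e : (fun l : List (Fin d) => if l = [] then (1 : ℝ) else 0) = ∑ i, U i [] • U i := by
      funext l
      simp [← e3 l, mul_comm]
    rw [dosm, e, map_sum, Finset.sum_apply]
    refine Finset.sum_congr rfl fun i _ => ?_
    rw [map_smul, Pi.smul_apply, e4 i k [] (dosB_nil N) (by simpa using hk), smul_eq_mul]
    ring

theorem dos_l2 {α : Type} (B : Finset α) {a : α → α → ℝ} (ha : ∀ l l', a l l' = a l' l) (z : ℂ)
    {x b : α → ℂ} (h : ∀ l ∈ B, ∑ l' ∈ B, a l l' • x l' - z * x l = b l) :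
    z.im * ∑ l ∈ B, ‖x l‖ ^ 2 = -∑ l ∈ B, (conj (x l) * b l).im := by
  have e1 : ∑ l ∈ B, ∑ l' ∈ B, a l l' * (conj (x l) * x l').im = 0 := by
    have : ∑ l ∈ B, ∑ l' ∈ B, a l l' * (conj (x l) * x l').im =
        -∑ l ∈ B, ∑ l' ∈ B, a l l' * (conj (x l) * x l').im := by
      conv_lhs => rw [Finset.sum_comm]
      simp only [← Finset.sum_neg_distrib]
      refine Finset.sum_congr rfl fun l _ => Finset.sum_congr rfl fun l' _ => ?_
      rw [ha l' l]
      simp
      ring
    linarith
  rw [← sub_zero (z.im * _), ← e1, Finset.mul_sum, ← Finset.sum_sub_distrib, ← Finset.sum_neg_distrib]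
  refine Finset.sum_congr rfl fun l hl => ?_
  rw [← h l hl, mul_sub, Finset.mul_sum, Complex.sub_im, Complex.im_sum, Complex.sq_norm,
    Complex.normSq_apply]
  simp only [mul_smul_comm, Complex.smul_im, smul_eq_mul]
  simp
  ring

theorem dos_apx {v : List (Fin d) → ℝ} {s C : ℝ} (hv : ∀ l, |v l| ≤ s) {z : ℂ} (hz : 0 < z.im)
    {x M : List (Fin d) → ℂ} (hx : ∀ l, dosHf v x l - z * x l = if l = [] then 1 else 0)
    (hM : ∀ l, dosC x l = -(x l * M l)) (hM0 : ∀ l, 0 ≤ (M l).im) (hMC : ∀ l, ‖M l‖ ≤ C) (K : ℕ) (ε : ℝ)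
    (hε : 0 < ε) : DosApx (d + s) (dosm v) K (fun t => ((t : ℂ) - z)⁻¹) (x []) ε := by
  have row : ∀ N, ∀ l ∈ dosB d N, ∑ l' ∈ dosB d N, dosA v l l' • x l' - z * x l =
      (if l = [] then 1 else 0) + if l.length = N then x l * M l else 0 := fun N l hl => by
    rw [dos_row v x hl, ← hx l, hM]
    split_ifs <;> ring
  have hS : ∀ N, ∑ l ∈ dosB d N, ‖x l‖ ^ 2 ≤ ‖x []‖ / z.im := fun N => by
    rw [le_div_iff₀' hz, dos_l2 _ (dosA_symm v) z (row N)]
    simp only [mul_add, Complex.add_im, Finset.sum_add_distrib, mul_ite, mul_one, mul_zero,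
      apply_ite Complex.im, Complex.zero_im, Finset.sum_ite_eq', dosB_nil, if_true]
    have h1 : 0 ≤ ∑ l ∈ dosB d N, if l.length = N then (conj (x l) * (x l * M l)).im else 0 := by
      refine Finset.sum_nonneg fun l _ => ?_
      split_ifs
      · rw [← mul_assoc, ← Complex.normSq_eq_conj_mul_self, Complex.im_ofReal_mul]
        exact mul_nonneg (Complex.normSq_nonneg _) (hM0 l)
      · rfl
    have h2 := (abs_le.1 (Complex.abs_im_le_norm (x []))).2
    rw [Complex.conj_im]
    linarith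
  let T : ℕ → ℝ := fun N => ∑ l ∈ dosB d N, if l.length = N then ‖x l‖ ^ 2 else 0
  have hT0 : ∀ N, 0 ≤ T N := fun N => Finset.sum_nonneg fun l _ => by positivity
  have hT : ∀ N, ∑ n ∈ Finset.range N, T (n + 1) ≤ ∑ l ∈ dosB d N, ‖x l‖ ^ 2 := by
    intro N
    induction N with
    | zero => exact Finset.sum_nonneg fun l _ => by positivity
    | succ N ih =>
      have e : (dosB d (N + 1)).filter (fun l => ¬ l.length = N + 1) = dosB d N := by
        ext l
        simp only [Finset.mem_filter, mem_dosB]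
        constructor
        · exact fun h => ⟨by omega, h.1.2⟩
        · exact fun h => ⟨⟨by omega, h.2⟩, by omega⟩
      rw [Finset.sum_range_succ, ← Finset.sum_filter_add_sum_filter_not (dosB d (N + 1))
        (fun l => l.length = N + 1), e, Finset.sum_filter]
      linarith
  have hlim := ((summable_of_sum_range_le (fun n => hT0 (n + 1)) fun N =>
    (hT N).trans (hS N)).tendsto_atTop_zero).const_mul (C ^ 2)
  rw [mul_zero] at hlim
  obtain ⟨n, hn1, hn2⟩ := ((hlim.eventually_le_const (by positivity : 0 < (z.im * ε) ^ 2)).and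
    (eventually_ge_atTop K)).exists
  obtain ⟨lam, U, h1, h2, h3, h4⟩ := dos_spec hv (n + 1)
  refine ⟨dosB d (n + 1), inferInstance, fun i => U i [] * U i [], lam, fun i => mul_self_nonneg _, h1,
    fun k hk => h4 k (by omega), ?_⟩
  let r : List (Fin d) → ℂ := fun l => x l - ∑ i, (U i l * U i [] : ℝ) * ((lam i : ℂ) - z)⁻¹
  have hr : ∀ l ∈ dosB d (n + 1), ∑ l' ∈ dosB d (n + 1), dosA v l l' • r l' - z * r l =
      if l.length = n + 1 then x l * M l else 0 := fun l hl => by
    have e1 := row _ l hl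
    have e2 : ∑ l' ∈ dosB d (n + 1), dosA v l l' • ∑ i, (U i l' * U i [] : ℝ) * ((lam i : ℂ) - z)⁻¹ -
        z * ∑ i, (U i l * U i [] : ℝ) * ((lam i : ℂ) - z)⁻¹ = if l = [] then 1 else 0 := by
      have e3 := congrArg (fun t : ℝ => (t : ℂ)) (h3 l)
      simp only [Complex.ofReal_sum, apply_ite Complex.ofReal, Complex.ofReal_one, Complex.ofReal_zero] at e3
      simp only [Finset.smul_sum, Finset.mul_sum]
      rw [Finset.sum_comm, ← Finset.sum_sub_distrib, ← e3]
      refine Finset.sum_congr rfl fun i _ => ?_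
      have e4 := congrArg (fun t : ℝ => (t : ℂ)) (h2 i l hl)
      have e5 := dos_ne hz (lam i)
      simp only [Complex.ofReal_sum, Complex.ofReal_mul] at e4
      simp only [Complex.real_smul, Complex.ofReal_mul, ← mul_assoc, ← Finset.sum_mul, e4]
      field_simp
    simp only [r, smul_sub, Finset.sum_sub_distrib]
    linear_combination e1 - e2
  have e6 := dos_l2 _ (dosA_symm v) z hr
  have e7 : -∑ l ∈ dosB d (n + 1), (conj (r l) * if l.length = n + 1 then x l * M l else 0).im ≤
      ∑ l ∈ dosB d (n + 1), (z.im / 2 * ‖r l‖ ^ 2 +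
        C ^ 2 / (2 * z.im) * if l.length = n + 1 then ‖x l‖ ^ 2 else 0) := by
    rw [← Finset.sum_neg_distrib]
    refine Finset.sum_le_sum fun l _ => ?_
    split_ifs
    · refine ((neg_le_abs _).trans (Complex.abs_im_le_norm _)).trans ?_
      rw [norm_mul, norm_mul, Complex.norm_conj]
      refine (mul_le_mul_of_nonneg_left (mul_le_mul_of_nonneg_left (hMC l) (norm_nonneg _))
        (norm_nonneg _)).trans (le_of_mul_le_mul_left ?_ (by positivity : 0 < 2 * z.im))
      have : 2 * z.im * (z.im / 2 * ‖r l‖ ^ 2 + C ^ 2 / (2 * z.im) * ‖x l‖ ^ 2) =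
        (z.im * ‖r l‖) ^ 2 + (C * ‖x l‖) ^ 2 := by field_simp
      nlinarith [sq_nonneg (z.im * ‖r l‖ - C * ‖x l‖)]
    · simp only [mul_zero, Complex.zero_im, neg_zero, add_zero]
      positivity
  rw [Finset.sum_add_distrib, ← Finset.mul_sum, ← Finset.mul_sum, ← e6] at e7
  have e8 : ‖r []‖ ^ 2 ≤ ∑ l ∈ dosB d (n + 1), ‖r l‖ ^ 2 :=
    Finset.single_le_sum (f := fun l => ‖r l‖ ^ 2) (fun l _ => by positivity) (dosB_nil _)
  have e9 : C ^ 2 / (2 * z.im) * T (n + 1) ≤ z.im / 2 * ε ^ 2 := by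
    rw [div_mul_eq_mul_div, div_le_iff₀ (by positivity)]
    nlinarith
  refine abs_le_of_sq_le_sq' (a := ‖r []‖) ?_ hε.le |>.2
  nlinarith

end Crest.Agent.R166
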